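import Crest.Agent.R163.Q3.D.P4.Par
import Crest.Agent.R163.Q3.D.F4.F0
import Crest.Agent.R163.Q3.D.F4.F1
import Crest.Agent.R163.Q3.D.F4.F2
import Crest.Agent.R163.Q3.D.F4.F3
import Crest.Agent.R163.Q3.D.F4.F4
import Crest.Agent.R163.Q3.D.F4.F5
import Crest.Agent.R163.Q3.D.F4.F6
import Crest.Agent.R163.Q3.D.F4.F7
import Crest.Agent.R163.Q3.D.F4.F8
import Crest.Agent.R163.Q3.D.F4.F9
import Crest.Agent.R163.Q3.D.F4.F10
import Crest.Agent.R163.Q3.D.F4.F11
import Crest.Agent.R163.Q3.D.F4.F12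

set_option autoImplicit false
set_option maxRecDepth 100000
set_option linter.all false
set_option Elab.async false

namespace Crest.Agent.R163.P4

abbrev f0 := F4.f0
theorem hf0 : FitOK par f0 :=
  FitOK.of_list [1,2,3,4,5] (by decide +kernel) F4.lf0
abbrev f1 := F4.f1
theorem hf1 : FitOK par f1 :=
  FitOK.of_list [1,2,3,4,5] (by decide +kernel) F4.lf1
abbrev f2 := F4.f2
theorem hf2 : FitOK par f2 :=
  FitOK.of_list [1,2,3,4,5] (by decide +kernel) F4.lf2
abbrev f3 := F4.f3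
theorem hf3 : FitOK par f3 :=
  FitOK.of_list [1,2,3,4,5] (by decide +kernel) F4.lf3
abbrev f4 := F4.f4
theorem hf4 : FitOK par f4 :=
  FitOK.of_list [1,2,3,4,5] (by decide +kernel) F4.lf4
abbrev f5 := F4.f5
theorem hf5 : FitOK par f5 :=
  FitOK.of_list [1,2,3,4,5] (by decide +kernel) F4.lf5
abbrev f6 := F4.f6
theorem hf6 : FitOK par f6 :=
  FitOK.of_list [1,2,3,4,5] (by decide +kernel) F4.lf6
abbrev f7 := F4.f7
theorem hf7 : FitOK par f7 :=
  FitOK.of_list [1,2,3,4,5] (by decide +kernel) F4.lf7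
abbrev f8 := F4.f8
theorem hf8 : FitOK par f8 :=
  FitOK.of_list [1,2,3,4,5] (by decide +kernel) F4.lf8
abbrev f9 := F4.f9
theorem hf9 : FitOK par f9 :=
  FitOK.of_list [1,2,3,4,5] (by decide +kernel) F4.lf9
abbrev f10 := F4.f10
theorem hf10 : FitOK par f10 :=
  FitOK.of_list [1,2,3,4,5] (by decide +kernel) F4.lf10
abbrev f11 := F4.f11
theorem hf11 : FitOK par f11 :=
  FitOK.of_list [1,2,3,4,5] (by decide +kernel) F4.lf11
abbrev f12 := F4.f12
theorem hf12 : FitOK par f12 :=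
  FitOK.of_list [1,2,3,4,5] (by decide +kernel) F4.lf12

end Crest.Agent.R163.P4
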